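import Vale.Agent.Lib.P084S.Ident

/-!
For a strictly convex norm of class `C^3` the points of positive curvature are dense.
-/

open Module Filter Topology

namespace Vale.Agent.Lib.P084S

variable {X : Type*} [NormedAddCommGroup X] [NormedSpace ℝ X]

lemma second_deriv_nonneg {g g' : ℝ → ℝ} {a : ℝ} (h1 : ∀ᶠ t in 𝓝 (0 : ℝ), HasDerivAt g (g' t) t)
    (h2 : HasDerivAt g' a 0) (hmin : IsLocalMin g 0) : 0 ≤ a := by
  by_contra hneg
  have hneg := not_le.1 hneg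
  have hderiv : deriv g =ᶠ[𝓝 0] g' := h1.mono fun t ht => ht.deriv
  have hd2 : deriv (deriv g) 0 = a := (h2.congr_of_eventuallyEq hderiv).deriv
  have hd1 : deriv g 0 = 0 := hmin.deriv_eq_zero
  have hc : ContinuousAt g 0 := h1.self_of_nhds.continuousAt
  have hmax : IsLocalMax g 0 := isLocalMax_of_deriv_deriv_neg (by rw [hd2]; exact hneg) hd1 hc
  have hconst : g =ᶠ[𝓝 0] fun _ => g 0 := by
    filter_upwards [hmin, hmax] with t h3 h4
    exact le_antisymm h4 h3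
  have h3 : deriv g =ᶠ[𝓝 0] deriv (fun _ => g 0) := hconst.deriv
  have h4 : deriv (deriv g) 0 = deriv (deriv fun _ : ℝ => g 0) 0 := h3.deriv_eq
  have h5 : deriv (fun _ : ℝ => g 0) = fun _ => 0 := by
    funext t
    exact deriv_const t (g 0)
  rw [h5, deriv_const] at h4
  linarith

variable [FiniteDimensional ℝ X] [StrictConvexSpace ℝ X]

/-- A point of positive curvature close to any given nonzero point. -/
lemma exists_pd_near [Nontrivial X] (hX : ContDiffOn ℝ 3 (norm : X → ℝ) {0}ᶜ) {x₀ : X} (hx₀ : x₀ ≠ 0)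
    {ρ : ℝ} (hρ : 0 < ρ) (hρ' : ρ < ‖x₀‖) :
    ∃ p ∈ Metric.ball x₀ ρ, ∀ h : X, fderiv ℝ norm p h = 0 → h ≠ 0 →
      0 < fderiv ℝ (fderiv ℝ norm) p h h := by
  have hnat := nAt hX hx₀
  set φ := fderiv ℝ (norm : X → ℝ) x₀ with hφ
  have hφself : φ x₀ = ‖x₀‖ := D1_self hX hx₀
  have hφnorm : ‖φ‖ = 1 := norm_fderiv_norm (hnat.differentiableAt (by norm_num))
  have hφle : ∀ x, φ x ≤ ‖x‖ := by
    intro x
    have h1 := φ.le_opNorm x
    rw [hφnorm, one_mul] at h1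
    exact (le_abs_self _).trans h1
  have hr0 : 0 < ‖x₀‖ := norm_pos_iff.2 hx₀
  set G : X → ℝ := fun x => ‖x‖ ^ (2 : ℕ) + ‖x₀‖ ^ (2 : ℕ) - 2 * ‖x₀‖ * φ x with hG
  have hGc : Continuous G := by fun_prop
  have hG0 : G x₀ = 0 := by
    simp only [hG, hφself]
    ring
  have hGpos : ∀ x, x ≠ x₀ → 0 < G x := by
    intro x hne
    have h1 : G x = (‖x‖ - ‖x₀‖) ^ (2 : ℕ) + 2 * ‖x₀‖ * (‖x‖ - φ x) := by
      simp only [hG]
      ring
    have h2 : 0 ≤ ‖x‖ - φ x := sub_nonneg.2 (hφle x)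
    have h3 : 0 ≤ 2 * ‖x₀‖ * (‖x‖ - φ x) := by positivity
    have h4 : 0 ≤ (‖x‖ - ‖x₀‖) ^ (2 : ℕ) := sq_nonneg _
    rw [h1]
    by_contra hcon
    have hcon := not_lt.1 hcon
    have h5 : (‖x‖ - ‖x₀‖) ^ (2 : ℕ) = 0 := by linarith
    have h6 : 2 * ‖x₀‖ * (‖x‖ - φ x) = 0 := by linarith
    have h7 : ‖x‖ = ‖x₀‖ := by
      have := pow_eq_zero_iff (n := 2) (by norm_num) |>.1 h5
      linarith
    have h8 : φ x = ‖x‖ := by
      rcases mul_eq_zero.1 h6 with h9 | h9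
      · exact absurd h9 (by positivity)
      · linarith
    have h10 : ‖x + x₀‖ = ‖x‖ + ‖x₀‖ := by
      refine le_antisymm (norm_add_le _ _) ?_
      have := hφle (x + x₀)
      rw [map_add, h8, hφself] at this
      exact this
    have h11 := sameRay_iff_norm_smul_eq.1 (sameRay_iff_norm_add.2 h10)
    rw [h7] at h11
    exact hne (smul_right_injective X hr0.ne' h11).symm
  set e := (toEuclidean : X ≃L[ℝ] EuclideanSpace ℝ (Fin (finrank ℝ X))) with he
  set E : X → ℝ := fun x => ‖e (x - x₀)‖ ^ (2 : ℕ) with hE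
  have hEc : Continuous E := by
    have : Continuous fun x : X => e (x - x₀) := e.continuous.comp (continuous_id.sub continuous_const)
    exact (this.norm).pow 2
  have hE0 : E x₀ = 0 := by simp [hE]
  have hEnn : ∀ x, 0 ≤ E x := fun x => by positivity
  -- minimum of `G` and maximum of `E` on the sphere
  have hsne : (Metric.sphere x₀ ρ).Nonempty := NormedSpace.sphere_nonempty.2 hρ.le
  have hscpt : IsCompact (Metric.sphere x₀ ρ) := isCompact_sphere _ _
  obtain ⟨x₁, hx₁, hmin₁⟩ := hscpt.exists_isMinOn hsne hGc.continuousOn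
  obtain ⟨x₂, hx₂, hmax₂⟩ := hscpt.exists_isMaxOn hsne hEc.continuousOn
  have hsphne : ∀ x ∈ Metric.sphere x₀ ρ, x ≠ x₀ := by
    intro x hx h
    rw [h, Metric.mem_sphere, dist_self] at hx
    exact hρ.ne hx
  set m := G x₁ with hm
  have hmpos : 0 < m := hGpos x₁ (hsphne x₁ hx₁)
  set ε : ℝ := m / (2 * (E x₂ + 1)) with hε
  have hE2 : 0 < E x₂ + 1 := by linarith [hEnn x₂]
  have hεpos : 0 < ε := by positivity
  have hεE : ∀ x ∈ Metric.sphere x₀ ρ, ε * E x ≤ m / 2 := by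
    intro x hx
    have h1 : E x ≤ E x₂ + 1 := by linarith [isMaxOn_iff.1 hmax₂ x hx]
    have h2 : ε * (E x₂ + 1) = m / 2 := by
      rw [hε]
      field_simp
    calc ε * E x ≤ ε * (E x₂ + 1) := mul_le_mul_of_nonneg_left h1 hεpos.le
      _ = m / 2 := h2
  -- minimum in the ball
  set F₁ : X → ℝ := fun x => G x - ε * E x with hF₁
  have hF₁c : Continuous F₁ := hGc.sub (continuous_const.mul hEc)
  obtain ⟨p, hp, hminp⟩ := (isCompact_closedBall x₀ ρ).exists_isMinOn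
    (⟨x₀, Metric.mem_closedBall_self hρ.le⟩) hF₁c.continuousOn
  have hpval : F₁ p ≤ 0 := by
    have h1 := isMinOn_iff.1 hminp x₀ (Metric.mem_closedBall_self hρ.le)
    have h2 : F₁ x₀ = 0 := by simp only [hF₁, hG0, hE0]; ring
    rwa [h2] at h1
  have hpball : p ∈ Metric.ball x₀ ρ := by
    rw [Metric.mem_ball]
    refine lt_of_le_of_ne (Metric.mem_closedBall.1 hp) fun heq => ?_
    have hps : p ∈ Metric.sphere x₀ ρ := heq
    have h1 : m ≤ G p := isMinOn_iff.1 hmin₁ p hps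
    have h2 := hεE p hps
    have h3 : F₁ p = G p - ε * E p := rfl
    linarith
  have hp0 : p ≠ 0 := by
    intro h
    rw [h, Metric.mem_ball, dist_zero_left] at hpball
    linarith
  have hrp : 0 < ‖p‖ := norm_pos_iff.2 hp0
  refine ⟨p, hpball, fun h hh0 hne => ?_⟩
  -- the line through `p` in direction `h`
  set u : ℝ → X := fun t => p + t • h with hu
  have hu0 : u 0 = p := by simp [hu]
  have hud : ∀ t, HasDerivAt u h t := by
    intro t
    have h1 : HasDerivAt (fun t : ℝ => t • h) ((1 : ℝ) • h) t := (hasDerivAt_id t).smul_const h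
    have h2 : HasDerivAt (fun t : ℝ => p + t • h) ((1 : ℝ) • h) t := h1.const_add p
    rw [one_smul] at h2
    exact h2
  have hucont : Continuous u := by fun_prop
  have hevne : ∀ᶠ t in 𝓝 (0 : ℝ), u t ≠ 0 := by
    have := hucont.continuousAt (x := (0 : ℝ))
    apply this.eventually_ne
    rw [hu0]
    exact hp0
  have hevball : ∀ᶠ t in 𝓝 (0 : ℝ), u t ∈ Metric.closedBall x₀ ρ := by
    have h1 := hucont.continuousAt (x := (0 : ℝ))
    have h2 : Metric.ball x₀ ρ ∈ 𝓝 (u 0) := by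
      rw [hu0]
      exact Metric.isOpen_ball.mem_nhds hpball
    filter_upwards [h1 h2] with t ht
    exact Metric.ball_subset_closedBall ht
  set a := e (p - x₀) with ha
  set b := e h with hb
  have hb0 : b ≠ 0 := by
    intro hb0
    apply hne
    have := e.injective (hb0.trans (map_zero e).symm)
    exact this
  have huE : ∀ t, e (u t - x₀) = a + t • b := by
    intro t
    rw [ha, hb, ← map_smul, ← map_add]
    congr 1
    simp only [hu]
    abel
  set ψ : ℝ → ℝ := fun t => ‖u t‖ ^ (2 : ℕ) + ‖x₀‖ ^ (2 : ℕ) - 2 * ‖x₀‖ * (φ p + t * φ h)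
      - ε * (‖a‖ ^ (2 : ℕ) + 2 * t * inner ℝ a b + t ^ (2 : ℕ) * ‖b‖ ^ (2 : ℕ)) with hψ
  have hψF : ∀ t, ψ t = F₁ (u t) := by
    intro t
    simp only [hψ, hF₁, hG, hE, huE]
    rw [norm_add_sq_real a (t • b), norm_smul, inner_smul_right]
    simp only [hu, map_add, map_smul, smul_eq_mul, Real.norm_eq_abs, mul_pow, sq_abs]
    ring
  have hψmin : IsLocalMin ψ 0 := by
    filter_upwards [hevball] with t ht
    rw [hψF, hψF, hu0]
    exact isMinOn_iff.1 hminp _ ht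
  set g' : ℝ → ℝ := fun t => 2 * (‖u t‖ * fderiv ℝ norm (u t) h) - 2 * ‖x₀‖ * φ h
      - ε * (2 * inner ℝ a b + 2 * t * ‖b‖ ^ (2 : ℕ)) with hg'
  have hψd : ∀ᶠ t in 𝓝 (0 : ℝ), HasDerivAt ψ (g' t) t := by
    filter_upwards [hevne] with t ht
    have h1 : HasDerivAt (fun t => ‖u t‖) (fderiv ℝ norm (u t) h) t :=
      (has1 (nAt hX ht)).comp_hasDerivAt t (hud t)
    have h2 := h1.fun_pow 2
    have h3 : HasDerivAt (fun t : ℝ => φ p + t * φ h) (φ h) t := by
      simpa using ((hasDerivAt_id t).mul_const (φ h)).const_add (φ p)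
    have h4 : HasDerivAt (fun t : ℝ => ‖a‖ ^ (2 : ℕ) + 2 * t * inner ℝ a b
        + t ^ (2 : ℕ) * ‖b‖ ^ (2 : ℕ)) (2 * inner ℝ a b + 2 * t * ‖b‖ ^ (2 : ℕ)) t := by
      have h5 : HasDerivAt (fun t : ℝ => 2 * t * inner ℝ a b) (2 * inner ℝ a b) t := by
        simpa using ((hasDerivAt_id t).const_mul 2).mul_const (inner ℝ a b)
      have h6 : HasDerivAt (fun t : ℝ => t ^ (2 : ℕ) * ‖b‖ ^ (2 : ℕ)) (2 * t * ‖b‖ ^ (2 : ℕ)) t := by
        simpa using (hasDerivAt_pow 2 t).mul_const (‖b‖ ^ (2 : ℕ))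
      exact (h5.const_add _).fun_add h6
    have h7 := ((h2.add_const (‖x₀‖ ^ (2 : ℕ))).fun_sub (h3.const_mul (2 * ‖x₀‖))).fun_sub
      (h4.const_mul ε)
    refine h7.congr_deriv ?_
    simp only [hg']
    norm_num
    ring
  have hg'd : HasDerivAt g' (2 * (fderiv ℝ norm p h * fderiv ℝ norm p h
      + ‖p‖ * fderiv ℝ (fderiv ℝ norm) p h h) - ε * (2 * ‖b‖ ^ (2 : ℕ))) 0 := by
    have h1 : HasDerivAt (fun t => ‖u t‖) (fderiv ℝ norm p h) 0 :=
      (has1 (nAt hX hp0)).comp_hasDerivAt_of_eq (0 : ℝ) (hud 0) hu0.symm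
    have h2 : HasDerivAt (fun t => fderiv ℝ (norm : X → ℝ) (u t)) (fderiv ℝ (fderiv ℝ norm) p h) 0 :=
      (has2 (nAt hX hp0)).comp_hasDerivAt_of_eq (0 : ℝ) (hud 0) hu0.symm
    have h3 : HasDerivAt (fun t => fderiv ℝ (norm : X → ℝ) (u t) h)
        (fderiv ℝ (fderiv ℝ norm) p h h) 0 := by
      have := h2.clm_apply (hasDerivAt_const (0 : ℝ) h)
      simpa using this
    have h4 : HasDerivAt (fun t : ℝ => 2 * inner ℝ a b + 2 * t * ‖b‖ ^ (2 : ℕ))
        (2 * ‖b‖ ^ (2 : ℕ)) 0 := by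
      have := ((hasDerivAt_id (0 : ℝ)).const_mul 2).mul_const (‖b‖ ^ (2 : ℕ))
      simpa using this.const_add (2 * inner ℝ a b)
    have h5 := (((h1.fun_mul h3).const_mul 2).sub_const (2 * ‖x₀‖ * φ h)).fun_sub
      (h4.const_mul ε)
    refine h5.congr_deriv ?_
    simp only [hu0]
  have hfinal := second_deriv_nonneg hψd hg'd hψmin
  rw [hh0, mul_zero, zero_add] at hfinal
  have hbpos : 0 < ‖b‖ := norm_pos_iff.2 hb0
  have h9 : 0 < ε * (2 * ‖b‖ ^ (2 : ℕ)) := by positivity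
  have h10 : 0 < ‖p‖ * fderiv ℝ (fderiv ℝ norm) p h h := by linarith
  exact (pos_iff_pos_of_mul_pos h10).1 hrp

/-- The points of positive curvature are dense. -/
theorem dense_pd [Nontrivial X] (hX : ContDiffOn ℝ 3 (norm : X → ℝ) {0}ᶜ) :
    Dense {p : X | ∀ h : X, fderiv ℝ norm p h = 0 → h ≠ 0 →
      0 < fderiv ℝ (fderiv ℝ norm) p h h} := by
  rw [Metric.dense_iff]
  intro x r hr
  obtain ⟨x₁, hx₁, hx₁0⟩ := (dense_compl_singleton (0 : X)).inter_open_nonempty (Metric.ball x r)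
    Metric.isOpen_ball ⟨x, Metric.mem_ball_self hr⟩
  have hx₁0' : x₁ ≠ 0 := hx₁0
  have hn : 0 < ‖x₁‖ := norm_pos_iff.2 hx₁0'
  have hd : 0 < r - dist x₁ x := sub_pos.2 hx₁
  set ρ := min (r - dist x₁ x) ‖x₁‖ / 2 with hρ
  have hρ0 : 0 < ρ := by
    have := lt_min hd hn
    positivity
  have hρ1 : ρ < ‖x₁‖ := by
    have h1 : min (r - dist x₁ x) ‖x₁‖ ≤ ‖x₁‖ := min_le_right _ _
    have h2 : 0 < min (r - dist x₁ x) ‖x₁‖ := lt_min hd hn
    rw [hρ]
    linarith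
  have hρ2 : ρ < r - dist x₁ x := by
    have h1 : min (r - dist x₁ x) ‖x₁‖ ≤ r - dist x₁ x := min_le_left _ _
    have h2 : 0 < min (r - dist x₁ x) ‖x₁‖ := lt_min hd hn
    rw [hρ]
    linarith
  obtain ⟨p, hp, hpd⟩ := exists_pd_near hX hx₁0' hρ0 hρ1
  refine ⟨p, ?_, hpd⟩
  rw [Metric.mem_ball] at hp ⊢
  have := dist_triangle p x₁ x
  linarith

end Vale.Agent.Lib.P084S
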