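import Vale.Agent.Lib.P084S.Main
import Vale.Agent.Lib.P084S.Density

/-!
From sphere maps to homogeneous extensions, and the final theorem.
-/

open Module Filter Topology Metric

namespace Vale.Agent.Lib.P084S

variable {X Y : Type*} [NormedAddCommGroup X] [NormedSpace ℝ X]
  [NormedAddCommGroup Y] [NormedSpace ℝ Y]

lemma unit_mem {x : X} (h : x ≠ 0) : ‖x‖⁻¹ • x ∈ sphere (0 : X) 1 := by
  have hr : ‖x‖ ≠ 0 := norm_ne_zero_iff.2 h
  simp [norm_smul, hr]

/-- Homogeneous extension of a map of unit spheres. -/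
noncomputable def ext (f : sphere (0 : X) 1 → sphere (0 : Y) 1) (x : X) : Y :=
  by
    classical
    exact if h : x = 0 then 0 else ‖x‖ • (f ⟨‖x‖⁻¹ • x, unit_mem h⟩ : Y)

lemma ext_zero (f : sphere (0 : X) 1 → sphere (0 : Y) 1) : ext f 0 = 0 := by
  simp [ext]

lemma ext_ne (f : sphere (0 : X) 1 → sphere (0 : Y) 1) {x : X} (h : x ≠ 0) :
    ext f x = ‖x‖ • (f ⟨‖x‖⁻¹ • x, unit_mem h⟩ : Y) := by
  simp [ext, h]

lemma ext_unit (f : sphere (0 : X) 1 → sphere (0 : Y) 1) (x : sphere (0 : X) 1) :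
    ext f x = f x := by
  have hx1 : ‖(x : X)‖ = 1 := by simp
  have hx : (x : X) ≠ 0 := by
    intro h
    rw [h, norm_zero] at hx1
    exact zero_ne_one hx1
  rw [ext_ne f hx]
  have : (⟨‖(x : X)‖⁻¹ • (x : X), unit_mem hx⟩ : sphere (0 : X) 1) = x := by
    apply Subtype.ext
    simp [hx1]
  rw [this, hx1, one_smul]

lemma sphere_norm {Z : Type*} [NormedAddCommGroup Z] (y : sphere (0 : Z) 1) : ‖(y : Z)‖ = 1 := by
  simp

lemma ext_hom {f : sphere (0 : X) 1 → sphere (0 : Y) 1} (hf : Isometry f) : HomIso (ext f) := by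
  refine ⟨fun x => ?_, fun r hr x => ?_, fun x y hx hy => ?_⟩
  · by_cases h : x = 0
    · simp [h, ext_zero]
    · rw [ext_ne f h, norm_smul, norm_norm, sphere_norm, mul_one]
  · by_cases h : x = 0
    · simp [h, ext_zero]
    · have h' : r • x ≠ 0 := smul_ne_zero hr.ne' h
      rw [ext_ne f h, ext_ne f h']
      have hn : ‖r • x‖ = r * ‖x‖ := by rw [norm_smul, Real.norm_of_nonneg hr.le]
      have : (⟨‖r • x‖⁻¹ • (r • x), unit_mem h'⟩ : sphere (0 : X) 1) =
          ⟨‖x‖⁻¹ • x, unit_mem h⟩ := by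
        apply Subtype.ext
        simp only [hn, smul_smul]
        congr 1
        have hx : ‖x‖ ≠ 0 := norm_ne_zero_iff.2 h
        field_simp
      rw [this, hn, smul_smul]
  · have h1 := ext_unit f ⟨x, by simpa using hx⟩
    have h2 := ext_unit f ⟨y, by simpa using hy⟩
    simp only at h1 h2
    rw [h1, h2]
    have h3 := hf.dist_eq ⟨x, by simpa using hx⟩ ⟨y, by simpa using hy⟩
    rw [Subtype.dist_eq, Subtype.dist_eq, dist_eq_norm, dist_eq_norm] at h3
    exact h3

lemma ext_inv {f : sphere (0 : X) 1 → sphere (0 : Y) 1} {g : sphere (0 : Y) 1 → sphere (0 : X) 1}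
    (hg : Isometry g) (hgf : ∀ x, g (f x) = x) (x : X) : ext g (ext f x) = x := by
  by_cases h : x = 0
  · simp [h, ext_zero]
  · have hr : 0 < ‖x‖ := norm_pos_iff.2 h
    rw [ext_ne f h, (ext_hom hg).smul _ hr, ext_unit, hgf]
    simp only
    rw [smul_smul, mul_inv_cancel₀ hr.ne', one_smul]

/-- Finite-dimensionality of the target. -/
lemma finiteDimensional_target [FiniteDimensional ℝ X] [Nontrivial X]
    {f : sphere (0 : X) 1 → sphere (0 : Y) 1} (hf : Isometry f) (hs : Function.Surjective f) :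
    FiniteDimensional ℝ Y := by
  have : ProperSpace X := FiniteDimensional.proper_real X
  have hcX : CompactSpace (sphere (0 : X) 1) := isCompact_iff_compactSpace.1 (isCompact_sphere _ _)
  have hcY : IsCompact (sphere (0 : Y) 1) := by
    have h1 : IsCompact (Set.range fun x => (f x : Y)) :=
      isCompact_range (continuous_subtype_val.comp hf.continuous)
    have h2 : (Set.range fun x => (f x : Y)) = sphere (0 : Y) 1 := by
      ext y
      constructor
      · rintro ⟨x, rfl⟩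
        exact (f x).2
      · intro hy
        obtain ⟨x, hx⟩ := hs ⟨y, hy⟩
        exact ⟨x, by simp only [hx]⟩
    rwa [h2] at h1
  obtain ⟨q⟩ : Nonempty (sphere (0 : Y) 1) := by
    obtain ⟨x⟩ : Nonempty (sphere (0 : X) 1) := by
      obtain ⟨x, hx⟩ := (NormedSpace.sphere_nonempty (x := (0 : X)) (r := 1)).2 zero_le_one
      exact ⟨⟨x, hx⟩⟩
    exact ⟨f x⟩
  have hball : IsCompact (closedBall (0 : Y) 1) := by
    have h1 : IsCompact ((fun z : ℝ × Y => z.1 • z.2) '' (Set.Icc (0 : ℝ) 1 ×ˢ sphere (0 : Y) 1)) :=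
      (isCompact_Icc.prod hcY).image (by fun_prop)
    have h2 : ((fun z : ℝ × Y => z.1 • z.2) '' (Set.Icc (0 : ℝ) 1 ×ˢ sphere (0 : Y) 1)) =
        closedBall (0 : Y) 1 := by
      ext y
      constructor
      · rintro ⟨⟨t, z⟩, ⟨ht, hz⟩, rfl⟩
        have hz1 : ‖z‖ = 1 := by simpa using hz
        simp only [mem_closedBall, dist_zero_right, norm_smul, hz1, mul_one, Real.norm_eq_abs,
          abs_of_nonneg ht.1]
        exact ht.2
      · intro hy
        have hy1 : ‖y‖ ≤ 1 := by simpa using hy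
        by_cases h0 : y = 0
        · exact ⟨(0, (q : Y)), ⟨⟨le_rfl, zero_le_one⟩, q.2⟩, by simp [h0]⟩
        · refine ⟨(‖y‖, ‖y‖⁻¹ • y), ⟨⟨norm_nonneg _, hy1⟩, unit_mem h0⟩, ?_⟩
          simp only
          rw [smul_smul, mul_inv_cancel₀ (norm_ne_zero_iff.2 h0), one_smul]
    rwa [h2] at h1
  exact FiniteDimensional.of_isCompact_closedBall ℝ zero_lt_one hball

/-- **Main theorem.** -/
theorem main [FiniteDimensional ℝ X] [StrictConvexSpace ℝ X]
    (hdim : 3 ≤ finrank ℝ X)
    (hX : ContDiffOn ℝ 3 (norm : X → ℝ) {0}ᶜ) (hY : ContDiffOn ℝ 3 (norm : Y → ℝ) {0}ᶜ)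
    (f : sphere (0 : X) 1 → sphere (0 : Y) 1) (hf : Isometry f) (hs : Function.Surjective f) :
    ∃ T : X ≃ₗᵢ[ℝ] Y, ∀ x : sphere (0 : X) 1, T x = f x := by
  have hnt : Nontrivial X := Module.nontrivial_of_finrank_pos (R := ℝ) (by omega)
  have hfd : FiniteDimensional ℝ Y := finiteDimensional_target hf hs
  -- the inverse map
  set g : sphere (0 : Y) 1 → sphere (0 : X) 1 := Function.surjInv hs with hg
  have hfg : ∀ y, f (g y) = y := Function.surjInv_eq hs
  have hgf : ∀ x, g (f x) = x := fun x => hf.injective (hfg (f x))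
  have hgiso : Isometry g := Isometry.of_dist_eq fun a b => by
    rw [← hf.dist_eq, hfg, hfg]
  obtain ⟨T, hT⟩ := main_hom hdim hX hY (dense_pd hX) (ext_hom hf) (ext_hom hgiso)
    (ext_inv hgiso hgf) (ext_inv hf hfg)
  refine ⟨T, fun x => ?_⟩
  rw [hT, ext_unit]

end Vale.Agent.Lib.P084S
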