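import Vale.Agent.Lib.P084S.Smooth

/-!
Differential identities for the homogeneous extension of a sphere isometry.
-/

open Module Filter Topology

namespace Vale.Agent.Lib.P084S

section generic

variable {E E' : Type*} [NormedAddCommGroup E] [NormedSpace ℝ E] [NormedAddCommGroup E']
  [NormedSpace ℝ E']

lemma has1 {f : E → E'} {x : E} (hf : ContDiffAt ℝ 3 f x) : HasFDerivAt f (fderiv ℝ f x) x :=
  (hf.differentiableAt (by norm_num)).hasFDerivAt

lemma cd1 {f : E → E'} {x : E} (hf : ContDiffAt ℝ 3 f x) : ContDiffAt ℝ 2 (fderiv ℝ f) x :=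
  hf.fderiv_right (by norm_num)

lemma cd2 {f : E → E'} {x : E} (hf : ContDiffAt ℝ 3 f x) :
    ContDiffAt ℝ 1 (fderiv ℝ (fderiv ℝ f)) x :=
  (cd1 hf).fderiv_right (by norm_num)

lemma has2 {f : E → E'} {x : E} (hf : ContDiffAt ℝ 3 f x) :
    HasFDerivAt (fderiv ℝ f) (fderiv ℝ (fderiv ℝ f) x) x :=
  ((cd1 hf).differentiableAt (by norm_num)).hasFDerivAt

lemma has3 {f : E → E'} {x : E} (hf : ContDiffAt ℝ 3 f x) :
    HasFDerivAt (fderiv ℝ (fderiv ℝ f)) (fderiv ℝ (fderiv ℝ (fderiv ℝ f)) x) x :=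
  ((cd2 hf).differentiableAt (by norm_num)).hasFDerivAt

lemma symm2 {f : E → E'} {x : E} (hf : ContDiffAt ℝ 3 f x) (a b : E) :
    fderiv ℝ (fderiv ℝ f) x a b = fderiv ℝ (fderiv ℝ f) x b a := by
  have h : IsSymmSndFDerivAt ℝ f x := hf.isSymmSndFDerivAt (by simp; norm_cast)
  exact h a b

/-- Third derivative, symmetry in the first two slots. -/
lemma symm3_left {f : E → E'} {x : E} (hf : ContDiffAt ℝ 3 f x) (a b c : E) :
    fderiv ℝ (fderiv ℝ (fderiv ℝ f)) x a b c = fderiv ℝ (fderiv ℝ (fderiv ℝ f)) x b a c := by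
  have h : IsSymmSndFDerivAt ℝ (fderiv ℝ f) x := (cd1 hf).isSymmSndFDerivAt (by simp)
  rw [h a b]

/-- Third derivative, symmetry in the last two slots. -/
lemma symm3_right {f : E → E'} {x : E} (hf : ContDiffAt ℝ 3 f x) (a b c : E) :
    fderiv ℝ (fderiv ℝ (fderiv ℝ f)) x a b c = fderiv ℝ (fderiv ℝ (fderiv ℝ f)) x a c b := by
  have hev : ∀ᶠ y in 𝓝 x, ContDiffAt ℝ 3 f y := hf.eventually (by simp)
  have h1 := ((has3 hf).clm_apply (hasFDerivAt_const b x)).clm_apply (hasFDerivAt_const c x)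
  have h2 := ((has3 hf).clm_apply (hasFDerivAt_const c x)).clm_apply (hasFDerivAt_const b x)
  have h3 : (fun y => fderiv ℝ (fderiv ℝ f) y b c) =ᶠ[𝓝 x] fun y => fderiv ℝ (fderiv ℝ f) y c b := by
    filter_upwards [hev] with y hy
    exact symm2 hy b c
  have h4 := (h2.congr_of_eventuallyEq h3).unique h1
  have h5 := congrArg (fun T => T a) h4
  simpa using h5.symm

/-- A map constant on a ray has vanishing derivative along the ray. -/
lemma fderiv_ray_zero {G : E → E'} {x : E} (hd : DifferentiableAt ℝ G x)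
    (hr : ∀ r : ℝ, 0 < r → G (r • x) = G x) : fderiv ℝ G x x = 0 := by
  have h1 : HasDerivAt (fun r : ℝ => r • x) ((1 : ℝ) • x) (1 : ℝ) :=
    (hasDerivAt_id (1 : ℝ)).smul_const x
  have h2 : DifferentiableAt ℝ G ((1 : ℝ) • x) := by simpa using hd
  have h3 := h2.hasFDerivAt.comp_hasDerivAt (1 : ℝ) h1
  have h4 : HasDerivAt (G ∘ fun r : ℝ => r • x) 0 (1 : ℝ) := by
    have h5 : HasDerivAt (fun _ : ℝ => G x) 0 (1 : ℝ) := hasDerivAt_const _ _
    refine h5.congr_of_eventuallyEq ?_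
    filter_upwards [lt_mem_nhds (zero_lt_one' ℝ)] with r hr0
    exact hr r hr0
  have h6 := h3.unique h4
  simpa using h6

/-- Euler identity. -/
lemma euler {G : E → E'} {x : E} (hd : DifferentiableAt ℝ G x)
    (hr : ∀ r : ℝ, 0 < r → G (r • x) = r • G x) : fderiv ℝ G x x = G x := by
  have h1 : HasDerivAt (fun r : ℝ => r • x) ((1 : ℝ) • x) (1 : ℝ) :=
    (hasDerivAt_id (1 : ℝ)).smul_const x
  have h2 : DifferentiableAt ℝ G ((1 : ℝ) • x) := by simpa using hd
  have h3 := h2.hasFDerivAt.comp_hasDerivAt (1 : ℝ) h1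
  have h4 : HasDerivAt (G ∘ fun r : ℝ => r • x) ((1 : ℝ) • G x) (1 : ℝ) := by
    have h5 : HasDerivAt (fun r : ℝ => r • G x) ((1 : ℝ) • G x) (1 : ℝ) :=
      (hasDerivAt_id (1 : ℝ)).smul_const (G x)
    refine h5.congr_of_eventuallyEq ?_
    filter_upwards [lt_mem_nhds (zero_lt_one' ℝ)] with r hr0
    exact hr r hr0
  have h6 := h3.unique h4
  simpa using h6

/-- Homogeneity of the derivative. -/
lemma fderiv_homog {G : E → E'} {x : E} {r c : ℝ} (hr : r ≠ 0) (hG : ∀ y, G (r • y) = c • G y)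
    (hd : DifferentiableAt ℝ G x) (hd' : DifferentiableAt ℝ G (r • x)) :
    fderiv ℝ G (r • x) = (c / r) • fderiv ℝ G x := by
  have h1 : HasFDerivAt (fun y : E => r • y) (r • ContinuousLinearMap.id ℝ E) x :=
    (hasFDerivAt_id x).const_smul r
  have h2 := hd'.hasFDerivAt.comp x h1
  have h3 : HasFDerivAt (G ∘ fun y : E => r • y) (c • fderiv ℝ G x) x := by
    have h4 := hd.hasFDerivAt.const_smul c
    have h5 : (G ∘ fun y : E => r • y) = c • G := by
      funext y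
      simp [hG]
    rw [h5]
    exact h4
  have h6 := h2.unique h3
  ext v
  have h7 := congrArg (fun T => T (r⁻¹ • v)) h6
  simp only [ContinuousLinearMap.comp_apply, smul_apply,
    ContinuousLinearMap.id_apply, smul_smul, inv_mul_cancel₀ hr, one_smul, map_smul] at h7
  rw [h7, smul_apply, div_eq_inv_mul]

end generic

section normderiv

variable {E : Type*} [NormedAddCommGroup E] [NormedSpace ℝ E]

lemma nAt (h : ContDiffOn ℝ 3 (norm : E → ℝ) {0}ᶜ) {x : E} (hx : x ≠ 0) :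
    ContDiffAt ℝ 3 (norm : E → ℝ) x :=
  h.contDiffAt (isOpen_compl_singleton.mem_nhds hx)

lemma D1_smul {r : ℝ} (hr : 0 < r) (x : E) :
    fderiv ℝ (norm : E → ℝ) (r • x) = fderiv ℝ norm x := fderiv_norm_smul_pos hr

lemma D1_self (h : ContDiffOn ℝ 3 (norm : E → ℝ) {0}ᶜ) {x : E} (hx : x ≠ 0) :
    fderiv ℝ (norm : E → ℝ) x x = ‖x‖ :=
  ((nAt h hx).differentiableAt (by norm_num)).fderiv_norm_self

lemma D2_smul (h : ContDiffOn ℝ 3 (norm : E → ℝ) {0}ᶜ) {r : ℝ} (hr : 0 < r) {x : E} (hx : x ≠ 0) :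
    fderiv ℝ (fderiv ℝ (norm : E → ℝ)) (r • x) = r⁻¹ • fderiv ℝ (fderiv ℝ norm) x := by
  have hx' : r • x ≠ 0 := smul_ne_zero hr.ne' hx
  have := fderiv_homog (G := fderiv ℝ (norm : E → ℝ)) (x := x) (r := r) (c := 1) hr.ne'
    (fun y => by rw [one_smul]; exact D1_smul hr y)
    ((has2 (nAt h hx)).differentiableAt) ((has2 (nAt h hx')).differentiableAt)
  rw [this, one_div]

lemma D2_self (h : ContDiffOn ℝ 3 (norm : E → ℝ) {0}ᶜ) {x : E} (hx : x ≠ 0) :
    fderiv ℝ (fderiv ℝ (norm : E → ℝ)) x x = 0 :=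
  fderiv_ray_zero (has2 (nAt h hx)).differentiableAt fun _ hr => D1_smul hr x

lemma D2_self' (h : ContDiffOn ℝ 3 (norm : E → ℝ) {0}ᶜ) {x : E} (hx : x ≠ 0) (a : E) :
    fderiv ℝ (fderiv ℝ (norm : E → ℝ)) x a x = 0 := by
  rw [symm2 (nAt h hx), D2_self h hx]
  simp

end normderiv

end Vale.Agent.Lib.P084S
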