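import Mathlib

/-!
Algebra lemma: a symmetric bilinear map `B` on a subspace `T` with totally symmetric
`Q (B a b) c` and with the tangency property `Q v w = 0, w ≠ 0 → d‖·‖_w (B v w) = 0`
vanishes, as soon as `dim T ≥ 2`.
-/

open Module

namespace Vale.Agent.Lib.P084S

variable {X : Type*} [NormedAddCommGroup X] [NormedSpace ℝ X]

/-- Algebraic hypotheses on a subspace. -/
structure Alg (W : Submodule ℝ X) (Q : X →L[ℝ] X →L[ℝ] ℝ) (B : X →L[ℝ] X →L[ℝ] X) : Prop where
  Qs : ∀ a ∈ W, ∀ b ∈ W, Q a b = Q b a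
  Qp : ∀ a ∈ W, a ≠ 0 → 0 < Q a a
  BW : ∀ a ∈ W, ∀ b ∈ W, B a b ∈ W
  Bs : ∀ a ∈ W, ∀ b ∈ W, B a b = B b a
  BQ : ∀ a ∈ W, ∀ b ∈ W, ∀ c ∈ W, Q (B a b) c = Q (B a c) b

section reals

lemma linear_quad_nonpos {α β : ℝ} (h : ∀ t : ℝ, α * t + β * t ^ (2 : ℕ) ≤ 0) : α = 0 := by
  have hφ : IsLocalMax (fun t : ℝ => α * t + β * t ^ (2 : ℕ)) 0 := by
    refine Filter.Eventually.of_forall fun t => ?_
    simpa using h t
  have hd : HasDerivAt (fun t : ℝ => α * t + β * t ^ (2 : ℕ)) α 0 := by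
    have h1 : HasDerivAt (fun t : ℝ => α * t) α 0 := by
      simpa using (hasDerivAt_id (0 : ℝ)).const_mul α
    have h2 : HasDerivAt (fun t : ℝ => β * t ^ (2 : ℕ)) 0 0 := by
      simpa using ((hasDerivAt_pow 2 (0 : ℝ)).const_mul β)
    simpa using h1.fun_add h2
  exact hφ.hasDerivAt_eq_zero hd

lemma stat_cubic {a b c d E e g : ℝ}
    (h : ∀ t : ℝ, (a + b * t + c * t ^ (2 : ℕ) + d * t ^ (3 : ℕ)) ^ (2 : ℕ) * E ^ (3 : ℕ)
      ≤ a ^ (2 : ℕ) * (E + e * t + g * t ^ (2 : ℕ)) ^ (3 : ℕ)) :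
    2 * a * b * E ^ (3 : ℕ) = 3 * a ^ (2 : ℕ) * E ^ (2 : ℕ) * e := by
  set φ : ℝ → ℝ := fun t => (a + b * t + c * t ^ (2 : ℕ) + d * t ^ (3 : ℕ)) ^ (2 : ℕ) * E ^ (3 : ℕ)
      - a ^ (2 : ℕ) * (E + e * t + g * t ^ (2 : ℕ)) ^ (3 : ℕ) with hφdef
  have hφ0 : φ 0 = 0 := by simp [hφdef]
  have hmax : IsLocalMax φ 0 := by
    refine Filter.Eventually.of_forall fun t => ?_
    show φ t ≤ φ 0
    rw [hφ0]
    have := h t
    simp only [hφdef]
    linarith
  have hd : HasDerivAt φ (2 * a * b * E ^ (3 : ℕ) - 3 * a ^ (2 : ℕ) * E ^ (2 : ℕ) * e) 0 := by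
    have hp : HasDerivAt (fun t : ℝ => a + b * t + c * t ^ (2 : ℕ) + d * t ^ (3 : ℕ)) b 0 := by
      have h1 : HasDerivAt (fun t : ℝ => b * t) b 0 := by
        simpa using (hasDerivAt_id (0 : ℝ)).const_mul b
      have h2 : HasDerivAt (fun t : ℝ => c * t ^ (2 : ℕ)) 0 0 := by
        simpa using ((hasDerivAt_pow 2 (0 : ℝ)).const_mul c)
      have h3 : HasDerivAt (fun t : ℝ => d * t ^ (3 : ℕ)) 0 0 := by
        simpa using ((hasDerivAt_pow 3 (0 : ℝ)).const_mul d)
      have := ((h1.const_add a).fun_add h2).fun_add h3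
      simpa using this
    have hq : HasDerivAt (fun t : ℝ => E + e * t + g * t ^ (2 : ℕ)) e 0 := by
      have h1 : HasDerivAt (fun t : ℝ => e * t) e 0 := by
        simpa using (hasDerivAt_id (0 : ℝ)).const_mul e
      have h2 : HasDerivAt (fun t : ℝ => g * t ^ (2 : ℕ)) 0 0 := by
        simpa using ((hasDerivAt_pow 2 (0 : ℝ)).const_mul g)
      have := (h1.const_add E).fun_add h2
      simpa using this
    have h1 := (hp.fun_pow 2).mul_const (E ^ (3 : ℕ))
    have h2 := (hq.fun_pow 3).const_mul (a ^ (2 : ℕ))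
    have := h1.fun_sub h2
    refine HasDerivAt.congr_deriv this ?_
    norm_num
    ring
  have := hmax.hasDerivAt_eq_zero hd
  linarith

end reals

namespace Alg

variable {W : Submodule ℝ X} {Q : X →L[ℝ] X →L[ℝ] ℝ} {B : X →L[ℝ] X →L[ℝ] X}

lemma eq_zero (h : Alg W Q B) {a : X} (ha : a ∈ W) (hy : ∀ y ∈ W, Q a y = 0) : a = 0 := by
  by_contra hne
  have := h.Qp a ha hne
  rw [hy a ha] at this
  exact lt_irrefl _ this

lemma cubic_expand (h : Alg W Q B) {e y : X} (he : e ∈ W) (hy : y ∈ W) (t : ℝ) :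
    Q (B (e + t • y) (e + t • y)) (e + t • y) =
      Q (B e e) e + (3 * Q (B e e) y) * t + (3 * Q (B e y) y) * t ^ (2 : ℕ)
        + Q (B y y) y * t ^ (3 : ℕ) := by
  have h1 : Q (B e y) e = Q (B e e) y := h.BQ e he y hy e he
  have h2 : Q (B y e) e = Q (B e e) y := by rw [h.Bs y hy e he, h1]
  have h3 : Q (B y e) y = Q (B e y) y := by rw [h.Bs y hy e he]
  have h4 : Q (B y y) e = Q (B e y) y := by rw [h.BQ y hy y hy e he, h3]
  simp only [map_add, map_smul, add_apply, smul_apply,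
    smul_eq_mul, h1, h2, h3, h4]
  ring

lemma quad_expand (h : Alg W Q B) {e y : X} (he : e ∈ W) (hy : y ∈ W) (t : ℝ) :
    Q (e + t • y) (e + t • y) = Q e e + (2 * Q e y) * t + Q y y * t ^ (2 : ℕ) := by
  have h1 : Q y e = Q e y := h.Qs y hy e he
  simp only [map_add, map_smul, add_apply, smul_apply,
    smul_eq_mul, h1]
  ring

lemma Q_nonneg (h : Alg W Q B) {x : X} (hx : x ∈ W) : 0 ≤ Q x x := by
  by_cases h0 : x = 0
  · simp [h0]
  · exact (h.Qp x hx h0).le

/-- polarization: vanishing cubic form gives `B = 0`. -/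
lemma B_zero_of_cubic (h : Alg W Q B) (hc : ∀ x ∈ W, Q (B x x) x = 0) :
    ∀ a ∈ W, ∀ b ∈ W, B a b = 0 := by
  have hself : ∀ a ∈ W, B a a = 0 := by
    intro a ha
    refine h.eq_zero (h.BW a ha a ha) fun y hy => ?_
    have h1 := h.cubic_expand ha hy 1
    have h2 := h.cubic_expand ha hy (-1)
    rw [hc _ (W.add_mem ha (W.smul_mem _ hy)), hc a ha, hc y hy] at h1 h2
    norm_num at h1 h2
    linarith
  intro a ha b hb
  have h1 := hself _ (W.add_mem ha hb)
  simp only [map_add, add_apply, hself a ha, hself b hb, h.Bs b hb a ha,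
    zero_add, add_zero] at h1
  have : (2 : ℝ) • B a b = 0 := by rw [two_smul]; exact h1
  simpa using this

/-- maximum of a homogeneous ratio -/
lemma exists_ratio_max [FiniteDimensional ℝ X] (hW : W ≠ ⊥) {A D : X → ℝ} (k : ℕ) (hk : k ≠ 0)
    (hA : Continuous A) (hD : Continuous D)
    (hAh : ∀ r : ℝ, 0 < r → ∀ x, A (r • x) = r ^ k * A x)
    (hDh : ∀ r : ℝ, 0 < r → ∀ x, D (r • x) = r ^ k * D x)
    (hDp : ∀ x ∈ W, x ≠ 0 → 0 < D x) :
    ∃ e ∈ W, e ≠ 0 ∧ ∀ x ∈ W, A x * D e ≤ A e * D x := by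
  set K : Set X := (W : Set X) ∩ Metric.sphere (0 : X) 1 with hK
  have hKc : IsCompact K := by
    refine (isCompact_sphere (0 : X) 1).inter_left ?_
    exact W.closed_of_finiteDimensional
  have hKne : K.Nonempty := by
    obtain ⟨x, hx, hx0⟩ := Submodule.exists_mem_ne_zero_of_ne_bot hW
    refine ⟨‖x‖⁻¹ • x, W.smul_mem _ hx, ?_⟩
    simp [norm_smul, hx0]
  have hK0 : ∀ x ∈ K, x ≠ 0 := by
    intro x hx h0
    have := hx.2
    simp [h0] at this
  have hcont : ContinuousOn (fun x => A x / D x) K := by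
    refine hA.continuousOn.div hD.continuousOn fun x hx => ?_
    exact (hDp x hx.1 (hK0 x hx)).ne'
  obtain ⟨e, heK, hmax⟩ := hKc.exists_isMaxOn hKne hcont
  have heW : e ∈ W := heK.1
  have he0 := hK0 e heK
  have hDe := hDp e heW he0
  refine ⟨e, heW, he0, fun x hx => ?_⟩
  by_cases hx0 : x = 0
  · have hA0 : A 0 = 0 := by
      have h2 := hAh 2 (by norm_num) 0
      rw [smul_zero] at h2
      have h3 : (2 : ℝ) ^ k ≠ 1 := (one_lt_pow₀ (by norm_num) hk).ne'
      have h4 : ((2 : ℝ) ^ k - 1) * A 0 = 0 := by linarith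
      rcases mul_eq_zero.1 h4 with h5 | h5
      · exact absurd (by linarith) h3
      · exact h5
    have hD0 : D 0 = 0 := by
      have h2 := hDh 2 (by norm_num) 0
      rw [smul_zero] at h2
      have h3 : (2 : ℝ) ^ k ≠ 1 := (one_lt_pow₀ (by norm_num) hk).ne'
      have h4 : ((2 : ℝ) ^ k - 1) * D 0 = 0 := by linarith
      rcases mul_eq_zero.1 h4 with h5 | h5
      · exact absurd (by linarith) h3
      · exact h5
    simp [hx0, hA0, hD0]
  · have hr : 0 < ‖x‖ := norm_pos_iff.2 hx0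
    have hxK : ‖x‖⁻¹ • x ∈ K := by
      refine ⟨W.smul_mem _ hx, ?_⟩
      simp [norm_smul, hx0]
    have hx1 : x = ‖x‖ • (‖x‖⁻¹ • x) := by
      rw [smul_smul, mul_inv_cancel₀ hr.ne', one_smul]
    have hle : A (‖x‖⁻¹ • x) / D (‖x‖⁻¹ • x) ≤ A e / D e := hmax hxK
    have hDx' := hDp _ hxK.1 (hK0 _ hxK)
    rw [div_le_div_iff₀ hDx' hDe] at hle
    have hAx := hAh ‖x‖ hr (‖x‖⁻¹ • x)
    have hDx := hDh ‖x‖ hr (‖x‖⁻¹ • x)
    rw [← hx1] at hAx hDx
    rw [hAx, hDx]
    have hpow : 0 ≤ ‖x‖ ^ k := by positivity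
    nlinarith [mul_le_mul_of_nonneg_left hle hpow]

/-- Existence of an idempotent direction for the quadratic map `x ↦ B x x`. -/
lemma exists_eigen [FiniteDimensional ℝ X] (h : Alg W Q B) (hW : W ≠ ⊥) :
    ∃ e ∈ W, Q e e = 1 ∧ ∃ μ : ℝ, 0 ≤ μ ∧ B e e = μ • e ∧
      ∀ x ∈ W, (Q (B x x) x) ^ (2 : ℕ) ≤ μ ^ (2 : ℕ) * (Q x x) ^ (3 : ℕ) := by
  obtain ⟨e, heW, he0, hmax⟩ := exists_ratio_max (A := fun x => (Q (B x x) x) ^ (2 : ℕ))
    (D := fun x => (Q x x) ^ (3 : ℕ)) hW 6 (by norm_num) (by fun_prop) (by fun_prop)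
    (by
      intro r _ x
      simp only [map_smul, smul_apply, smul_eq_mul]
      ring)
    (by
      intro r _ x
      simp only [map_smul, smul_apply, smul_eq_mul]
      ring)
    (fun x hx hx0 => pow_pos (h.Qp x hx hx0) 3)
  have hE : 0 < Q e e := h.Qp e heW he0
  set E := Q e e with hEdef
  set a := Q (B e e) e with hadef
  -- first-order condition
  have hstat : ∀ y ∈ W, a * Q (B e e) y * E = a ^ (2 : ℕ) * Q e y := by
    intro y hy
    have hst := stat_cubic (a := a) (b := 3 * Q (B e e) y) (c := 3 * Q (B e y) y)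
      (d := Q (B y y) y) (E := E) (e := 2 * Q e y) (g := Q y y) (fun t => by
        have := hmax (e + t • y) (W.add_mem heW (W.smul_mem _ hy))
        rw [h.cubic_expand heW hy, h.quad_expand heW hy] at this
        exact this)
    have hE2 : E ^ (2 : ℕ) ≠ 0 := by positivity
    have : (6 * E ^ (2 : ℕ)) * (a * Q (B e e) y * E) = (6 * E ^ (2 : ℕ)) * (a ^ (2 : ℕ) * Q e y) := by
      nlinarith [hst]
    exact mul_left_cancel₀ (by positivity) this
  have heig : E • B e e = a • e := by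
    by_cases ha : a = 0
    · -- cubic vanishes, hence B vanishes
      have hc : ∀ x ∈ W, Q (B x x) x = 0 := by
        intro x hx
        have h1 := hmax x hx
        rw [ha] at h1
        have h2 : (Q (B x x) x) ^ (2 : ℕ) * E ^ (3 : ℕ) ≤ 0 := by simpa using h1
        have h3 : 0 < E ^ (3 : ℕ) := by positivity
        have h4 : (Q (B x x) x) ^ (2 : ℕ) ≤ 0 := by
          by_contra hcon
          have hcon := not_le.1 hcon
          nlinarith [mul_pos hcon h3]
        exact pow_eq_zero_iff (by norm_num) |>.1 (le_antisymm h4 (sq_nonneg _))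
      rw [h.B_zero_of_cubic hc e heW e heW, ha]
      simp
    · have hkey : (E • B e e - a • e) = 0 := by
        refine h.eq_zero (W.sub_mem (W.smul_mem _ (h.BW e heW e heW)) (W.smul_mem _ heW))
          fun y hy => ?_
        have h1 := hstat y hy
        simp only [map_sub, map_smul, sub_apply, smul_apply,
          smul_eq_mul]
        have : a * (E * Q (B e e) y - a * Q e y) = 0 := by nlinarith [h1]
        rcases mul_eq_zero.1 this with h2 | h2
        · exact absurd h2 ha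
        · exact h2
      exact sub_eq_zero.1 hkey
  -- normalization
  set r : ℝ := Real.sqrt E with hr
  have hr0 : 0 < r := Real.sqrt_pos.2 hE
  have hr2 : r ^ (2 : ℕ) = E := Real.sq_sqrt hE.le
  -- choose the sign
  obtain ⟨s, hs, hsa⟩ : ∃ s : ℝ, s ^ (2 : ℕ) = 1 ∧ 0 ≤ s * a := by
    by_cases ha : 0 ≤ a
    · exact ⟨1, by norm_num, by simpa using ha⟩
    · exact ⟨-1, by norm_num, by have ha := not_le.1 ha; linarith⟩
  set e₁ : X := (s * r⁻¹) • e with he₁
  have hr3 : (s * r⁻¹) ^ (2 : ℕ) = E⁻¹ := by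
    rw [mul_pow, hs, inv_pow, hr2, one_mul]
  refine ⟨e₁, W.smul_mem _ heW, ?_, s * r⁻¹ * E⁻¹ * a, ?_, ?_, ?_⟩
  · simp only [he₁, map_smul, smul_apply, smul_eq_mul]
    rw [← mul_assoc, ← pow_two, hr3, ← hEdef, inv_mul_cancel₀ hE.ne']
  · have : 0 ≤ s * a * (r⁻¹ * E⁻¹) := mul_nonneg hsa (by positivity)
    calc 0 ≤ s * a * (r⁻¹ * E⁻¹) := this
      _ = s * r⁻¹ * E⁻¹ * a := by ring
  · simp only [he₁, map_smul, smul_apply]
    have hBe : B e e = (E⁻¹ * a) • e := by
      have h1 : E⁻¹ • (E • B e e) = B e e := by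
        rw [smul_smul, inv_mul_cancel₀ hE.ne', one_smul]
      rw [← h1, heig, smul_smul]
    rw [hBe]
    simp only [smul_smul]
    congr 1
    ring
  · intro x hx
    have h1 := hmax x hx
    have hμ : (s * r⁻¹ * E⁻¹ * a) ^ (2 : ℕ) = (E ^ (3 : ℕ))⁻¹ * a ^ (2 : ℕ) := by
      calc (s * r⁻¹ * E⁻¹ * a) ^ (2 : ℕ) = (s * r⁻¹) ^ (2 : ℕ) * (E⁻¹) ^ (2 : ℕ) * a ^ (2 : ℕ) := by
            ring
        _ = _ := by rw [hr3]; field_simp
    rw [hμ]
    have h3 : 0 < E ^ (3 : ℕ) := by positivity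
    have h4 : (Q (B x x) x) ^ (2 : ℕ) = (E ^ (3 : ℕ))⁻¹ * ((Q (B x x) x) ^ (2 : ℕ) * E ^ (3 : ℕ)) := by
      field_simp
    rw [h4, mul_assoc]
    exact mul_le_mul_of_nonneg_left h1 (by positivity)

end Alg

/-- Extremum of a quadratic form with respect to `Q`, first-order condition. -/
lemma exists_quad_max [FiniteDimensional ℝ X] {W : Submodule ℝ X} {Q : X →L[ℝ] X →L[ℝ] ℝ}
    (hW : W ≠ ⊥) (hQs : ∀ a ∈ W, ∀ b ∈ W, Q a b = Q b a) (hQp : ∀ a ∈ W, a ≠ 0 → 0 < Q a a)
    (S : X →L[ℝ] X →L[ℝ] ℝ) (hS : ∀ a ∈ W, ∀ b ∈ W, S a b = S b a) :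
    ∃ e ∈ W, e ≠ 0 ∧ (∀ y ∈ W, S e y * Q e e = S e e * Q e y) ∧
      ∀ x ∈ W, S x x * Q e e ≤ S e e * Q x x := by
  obtain ⟨e, heW, he0, hmax⟩ := Alg.exists_ratio_max (A := fun x => S x x)
    (D := fun x => Q x x) hW 2 (by norm_num) (by fun_prop) (by fun_prop)
    (by
      intro r _ x
      simp only [map_smul, smul_apply, smul_eq_mul]
      ring)
    (by
      intro r _ x
      simp only [map_smul, smul_apply, smul_eq_mul]
      ring)
    hQp
  refine ⟨e, heW, he0, fun y hy => ?_, hmax⟩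
  have hlin : (2 * (S e y * Q e e - S e e * Q e y)) = 0 := by
    refine linear_quad_nonpos (β := S y y * Q e e - S e e * Q y y) fun t => ?_
    have h1 := hmax (e + t • y) (W.add_mem heW (W.smul_mem _ hy))
    have h2 : S y e = S e y := hS y hy e heW
    have h3 : Q y e = Q e y := hQs y hy e heW
    simp only [map_add, map_smul, add_apply, smul_apply, smul_eq_mul, h2, h3] at h1
    nlinarith [h1]
  linarith

/-- **Lemma A.** -/
theorem lemmaA [FiniteDimensional ℝ X] {T : Submodule ℝ X} {Q : X →L[ℝ] X →L[ℝ] ℝ}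
    {B : X →L[ℝ] X →L[ℝ] X} (h : Alg T Q B) (hdim : 2 ≤ finrank ℝ T)
    (hn : ContDiffOn ℝ 1 (norm : X → ℝ) {0}ᶜ)
    (hyp : ∀ v ∈ T, ∀ w ∈ T, w ≠ 0 → Q v w = 0 → fderiv ℝ norm w (B v w) = 0) :
    ∀ a ∈ T, ∀ b ∈ T, B a b = 0 := by
  by_contra hne
  have hT : T ≠ ⊥ := by
    rintro rfl
    simp at hdim
  have hcne : ∃ x ∈ T, Q (B x x) x ≠ 0 := by
    by_contra hcon
    apply hne
    apply h.B_zero_of_cubic
    intro x hx
    by_contra hx2
    exact hcon ⟨x, hx, hx2⟩
  obtain ⟨u, huT, hQu, μ, hμ0, hBu, hmaxu⟩ := h.exists_eigen hT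
  have hμ : 0 < μ := by
    obtain ⟨x, hx, hcx⟩ := hcne
    rcases hμ0.lt_or_eq with h1 | h1
    · exact h1
    · exfalso
      have h2 := hmaxu x hx
      rw [← h1] at h2
      have h3 : (Q (B x x) x) ^ (2 : ℕ) ≤ 0 := by simpa using h2
      exact hcx (pow_eq_zero_iff (by norm_num) |>.1 (le_antisymm h3 (sq_nonneg _)))
  have hdn : ∀ x : X, x ≠ 0 → DifferentiableAt ℝ (norm : X → ℝ) x := fun x hx =>
    (hn.contDiffAt (isOpen_compl_singleton.mem_nhds hx)).differentiableAt (by norm_num)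
  have hdnc : ContinuousOn (fderiv ℝ (norm : X → ℝ)) {0}ᶜ :=
    hn.continuousOn_fderiv_of_isOpen isOpen_compl_singleton le_rfl
  -- the subspace `W`
  set W : Submodule ℝ X := T ⊓ LinearMap.ker (Q u : X →ₗ[ℝ] ℝ) with hWdef
  have hmemW : ∀ x, x ∈ W ↔ x ∈ T ∧ Q u x = 0 := by
    intro x
    simp [hWdef, LinearMap.mem_ker]
  have hW : W ≠ ⊥ := by
    -- a vector of `T` not on the line of `u`
    have hnle : ¬ T ≤ Submodule.span ℝ {u} := by
      intro hle
      have h1 := Submodule.finrank_mono hle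
      have h2 : finrank ℝ (Submodule.span ℝ {u}) ≤ 1 := by
        simpa using finrank_span_le_card (R := ℝ) ({u} : Set X)
      omega
    obtain ⟨x, hxT, hxu⟩ := SetLike.not_le_iff_exists.1 hnle
    have hmem : x - Q u x • u ∈ W := by
      rw [hmemW]
      refine ⟨T.sub_mem hxT (T.smul_mem _ huT), ?_⟩
      simp [hQu]
    intro hbot
    rw [hbot, Submodule.mem_bot, sub_eq_zero] at hmem
    apply hxu
    rw [hmem]
    exact Submodule.smul_mem _ _ (Submodule.mem_span_singleton_self u)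
  have hWT : ∀ {x}, x ∈ W → x ∈ T := fun hx => ((hmemW _).1 hx).1
  have hWQ : ∀ {x}, x ∈ W → Q u x = 0 := fun hx => ((hmemW _).1 hx).2
  have hQsW : ∀ a ∈ W, ∀ b ∈ W, Q a b = Q b a := fun a ha b hb => h.Qs a (hWT ha) b (hWT hb)
  have hQpW : ∀ a ∈ W, a ≠ 0 → 0 < Q a a := fun a ha => h.Qp a (hWT ha)
  have hzeroW : ∀ a ∈ W, (∀ y ∈ W, Q a y = 0) → a = 0 := by
    intro a ha hy
    by_contra hne
    have := hQpW a ha hne
    rw [hy a ha] at this
    exact lt_irrefl _ this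
  -- `B u` preserves `W`
  have hBuW : ∀ e ∈ W, B u e ∈ W := by
    intro e he
    rw [hmemW]
    refine ⟨h.BW u huT e (hWT he), ?_⟩
    rw [h.Qs u huT _ (h.BW u huT e (hWT he)), h.BQ u huT e (hWT he) u huT, hBu, map_smul,
      smul_apply, hWQ he, smul_zero]
  set S : X →L[ℝ] X →L[ℝ] ℝ := Q.comp (B u) with hSdef
  have hSapp : ∀ a b, S a b = Q (B u a) b := fun a b => rfl
  have hSs : ∀ a ∈ W, ∀ b ∈ W, S a b = S b a := by
    intro a ha b hb
    rw [hSapp, hSapp, h.BQ u huT a (hWT ha) b (hWT hb)]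
  -- at a critical direction the critical value vanishes
  have hcrit : ∀ e ∈ W, e ≠ 0 → (∀ y ∈ W, S e y * Q e e = S e e * Q e y) → S e e = 0 := by
    intro e he he0 hy
    have hE := hQpW e he he0
    set ν := S e e / Q e e with hν
    have hBe : B u e = ν • e := by
      rw [← sub_eq_zero]
      refine hzeroW _ (W.sub_mem (hBuW e he) (W.smul_mem _ he)) fun y hyW => ?_
      have h1 := hy y hyW
      rw [hSapp] at h1
      simp only [map_sub, map_smul, sub_apply, smul_apply, smul_eq_mul]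
      rw [hν]
      have h2 : Q (B u e) y = S e e * Q e y / Q e e := by
        rw [eq_div_iff hE.ne']
        exact h1
      rw [h2]
      ring
    have h1 := hyp u huT e (hWT he) he0 (hWQ he)
    rw [hBe, map_smul, smul_eq_mul, (hdn e he0).fderiv_norm_self] at h1
    have hν0 : ν = 0 := by
      rcases mul_eq_zero.1 h1 with h2 | h2
      · exact h2
      · exact absurd (norm_eq_zero.1 h2) he0
    rw [hν, div_eq_zero_iff] at hν0
    rcases hν0 with h2 | h2
    · exact h2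
    · exact absurd h2 hE.ne'
  -- `S` vanishes on the diagonal of `W`
  have hSdiag : ∀ x ∈ W, S x x = 0 := by
    intro x hx
    obtain ⟨e₁, he₁, he₁0, hcr₁, hmax₁⟩ := exists_quad_max hW hQsW hQpW S hSs
    obtain ⟨e₂, he₂, he₂0, hcr₂, hmax₂⟩ := exists_quad_max hW hQsW hQpW (-S) (by
      intro a ha b hb
      simp only [neg_apply, hSs a ha b hb])
    have h1 := hcrit e₁ he₁ he₁0 hcr₁
    have h2 : S e₂ e₂ = 0 := hcrit e₂ he₂ he₂0 (by
      intro y hy
      have := hcr₂ y hy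
      simp only [neg_apply] at this
      linarith)
    have h3 := hmax₁ x hx
    have h4 := hmax₂ x hx
    simp only [neg_apply, h2, h1, neg_zero, zero_mul] at h3 h4
    have hE₁ := hQpW e₁ he₁ he₁0
    have hE₂ := hQpW e₂ he₂ he₂0
    have h5 : S x x ≤ 0 := by
      by_contra hcon
      have := mul_pos (not_le.1 hcon) hE₁
      linarith
    have h6 : 0 ≤ S x x := by
      by_contra hcon
      have := mul_pos (neg_pos.2 (not_le.1 hcon)) hE₂
      linarith
    linarith
  have hBuzero : ∀ e ∈ W, B u e = 0 := by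
    intro e he
    refine hzeroW _ (hBuW e he) fun y hy => ?_
    have h1 := hSdiag (e + y) (W.add_mem he hy)
    rw [hSapp] at h1
    simp only [map_add, add_apply] at h1
    have h2 := hSdiag e he
    have h3 := hSdiag y hy
    rw [hSapp] at h2 h3
    have h4 : Q (B u y) e = Q (B u e) y := (hSs e he y hy).symm
    linarith
  -- algebraic structure on `W`
  have hAlgW : Alg W Q B := by
    refine ⟨hQsW, hQpW, fun a ha b hb => ?_, fun a ha b hb => h.Bs a (hWT ha) b (hWT hb),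
      fun a ha b hb c hc => h.BQ a (hWT ha) b (hWT hb) c (hWT hc)⟩
    rw [hmemW]
    refine ⟨h.BW a (hWT ha) b (hWT hb), ?_⟩
    rw [h.Qs u huT _ (h.BW a (hWT ha) b (hWT hb)), h.BQ a (hWT ha) b (hWT hb) u huT,
      h.Bs a (hWT ha) u huT, hBuzero a ha]
    simp
  obtain ⟨e, heW, hQe, μ₂, -, hBe, -⟩ := hAlgW.exists_eigen hW
  have heT := hWT heW
  have hue : Q u e = 0 := hWQ heW
  have heu : Q e u = 0 := by rw [h.Qs e heT u huT, hue]
  have hBue : B u e = 0 := hBuzero e heW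
  have hBeu : B e u = 0 := by rw [h.Bs e heT u huT, hBue]
  set z : X := μ₂ • e - μ • u with hz
  have hz0 : z ≠ 0 := by
    intro h0
    have h1 : Q u z = -μ := by
      simp [hz, hue, hQu]
    rw [h0] at h1
    simp at h1
    exact hμ.ne' h1
  have hwne : ∀ s t : ℝ, 0 < s → s • u + t • e ≠ 0 := by
    intro s t hs h0
    have h1 : Q u (s • u + t • e) = s := by
      simp [hue, hQu]
    rw [h0] at h1
    simp at h1
    exact hs.ne h1
  -- tangency on the quarter plane
  have htan₁ : ∀ s t : ℝ, 0 < s → t ≠ 0 → fderiv ℝ norm (s • u + t • e) z = 0 := by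
    intro s t hs ht
    have hwT : s • u + t • e ∈ T := T.add_mem (T.smul_mem _ huT) (T.smul_mem _ heT)
    have hvT : (-t) • u + s • e ∈ T := T.add_mem (T.smul_mem _ huT) (T.smul_mem _ heT)
    have hQ0 : Q ((-t) • u + s • e) (s • u + t • e) = 0 := by
      simp only [map_add, map_smul, add_apply, smul_apply, smul_eq_mul, hQu, hue, heu, hQe]
      ring
    have h1 := hyp _ hvT _ hwT (hwne s t hs) hQ0
    have hBvw : B ((-t) • u + s • e) (s • u + t • e) = (s * t) • z := by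
      simp only [map_add, map_smul, add_apply, smul_apply, hBu, hBue, hBeu, hBe, hz, smul_zero,
        add_zero, zero_add, smul_sub, smul_smul]
      rw [add_comm, sub_eq_add_neg, ← neg_smul]
      congr 2 <;> ring
    rw [hBvw, map_smul, smul_eq_mul] at h1
    rcases mul_eq_zero.1 h1 with h2 | h2
    · exact absurd h2 (mul_ne_zero hs.ne' ht)
    · exact h2
  have htan : ∀ s t : ℝ, 0 < s → fderiv ℝ norm (s • u + t • e) z = 0 := by
    intro s t hs
    have hc : Continuous fun t : ℝ => fderiv ℝ norm (s • u + t • e) z := by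
      have h1 : Continuous fun t : ℝ => fderiv ℝ (norm : X → ℝ) (s • u + t • e) := by
        refine hdnc.comp_continuous (by fun_prop) fun t => ?_
        exact hwne s t hs
      exact h1.clm_apply continuous_const
    have h2 : (fun t : ℝ => fderiv ℝ norm (s • u + t • e) z) = fun _ => 0 := by
      refine Continuous.ext_on (dense_compl_singleton (0 : ℝ)) hc continuous_const fun t ht => ?_
      exact htan₁ s t hs ht
    exact congrFun h2 t
  -- the path
  have hpath : ∀ L : ℝ, 0 ≤ L → u - L • z = (1 + L * μ) • u + (-(L * μ₂)) • e := by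
    intro L _
    rw [hz, smul_sub, smul_smul, smul_smul, add_smul, one_smul, neg_smul]
    abel_nf
  have hpos : ∀ L : ℝ, 0 ≤ L → 0 < 1 + L * μ := fun L hL => by positivity
  have hφ : ∀ L : ℝ, 0 < L → ‖u - L • z‖ = ‖u‖ := by
    intro L hL
    have hmvt := exists_hasDerivAt_eq_slope (fun l : ℝ => ‖u - l • z‖) (fun _ => 0) hL
      (by fun_prop) (by
        intro l hl
        have hl0 : 0 ≤ l := hl.1.le
        have hne : u - l • z ≠ 0 := by
          rw [hpath l hl0]
          exact hwne _ _ (hpos l hl0)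
        have h1 : HasDerivAt (fun l : ℝ => u - l • z) (-z) l := by
          have h2 : HasDerivAt (fun l : ℝ => l • z) ((1 : ℝ) • z) l := (hasDerivAt_id l).smul_const z
          simpa using h2.const_sub u
        have h3 := (hdn _ hne).hasFDerivAt.comp_hasDerivAt l h1
        have h4 : fderiv ℝ (norm : X → ℝ) (u - l • z) (-z) = 0 := by
          rw [map_neg, hpath l hl0, htan _ _ (hpos l hl0), neg_zero]
        rw [h4] at h3
        exact h3)
    obtain ⟨c, -, hc⟩ := hmvt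
    have h5 := hc.symm
    rw [div_eq_zero_iff] at h5
    rcases h5 with h6 | h6
    · simpa [sub_eq_zero] using h6
    · exact absurd h6 (by linarith)
  have hznorm : 0 < ‖z‖ := norm_pos_iff.2 hz0
  have hL := hφ (3 * ‖u‖ / ‖z‖ + 1) (by positivity)
  have hge : ‖(3 * ‖u‖ / ‖z‖ + 1) • z‖ - ‖u‖ ≤ ‖u - (3 * ‖u‖ / ‖z‖ + 1) • z‖ := by
    have := norm_sub_norm_le ((3 * ‖u‖ / ‖z‖ + 1) • z) u
    rwa [norm_sub_rev ((3 * ‖u‖ / ‖z‖ + 1) • z) u] at this
  rw [hL, norm_smul, Real.norm_of_nonneg (by positivity), add_mul, div_mul_cancel₀ _ hznorm.ne',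
    one_mul] at hge
  have hu0 : 0 < ‖u‖ := by
    refine norm_pos_iff.2 ?_
    intro hu
    rw [hu] at hQu
    simp at hQu
  linarith

end Vale.Agent.Lib.P084S
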